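import Mathlib

open Finset

namespace Vale.Agent.H28.P170

variable {X : Type*}

/-- positive operators on functions -/
def Pos (A : Module.End ℝ (X → ℝ)) : Prop := ∀ φ : X → ℝ, 0 ≤ φ → 0 ≤ A φ

theorem Pos.mono {A : Module.End ℝ (X → ℝ)} (hA : Pos A) {φ ψ : X → ℝ} (h : φ ≤ ψ) :
    A φ ≤ A ψ := by
  have := hA (ψ - φ) (sub_nonneg.mpr h)
  rw [map_sub] at this
  exact sub_nonneg.mp this

theorem Pos.one : Pos (1 : Module.End ℝ (X → ℝ)) := fun φ h => by simpa using h

theorem Pos.mul {A B : Module.End ℝ (X → ℝ)} (hA : Pos A) (hB : Pos B) : Pos (A * B) :=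
  fun φ h => hA _ (hB _ h)

theorem Pos.pow {A : Module.End ℝ (X → ℝ)} (hA : Pos A) (n : ℕ) : Pos (A ^ n) := by
  induction n with
  | zero => simpa using Pos.one
  | succ n ih => rw [pow_succ]; exact ih.mul hA

theorem Pos.add {A B : Module.End ℝ (X → ℝ)} (hA : Pos A) (hB : Pos B) : Pos (A + B) :=
  fun φ h => by simpa using add_nonneg (hA φ h) (hB φ h)

theorem Pos.smul {A : Module.End ℝ (X → ℝ)} (hA : Pos A) {c : ℝ} (hc : 0 ≤ c) : Pos (c • A) :=
  fun φ h => by simpa using smul_nonneg hc (hA φ h)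

/-- geometric comparison: `∑_{u<T} A^u ψ ≤ p₀⁻¹ ∑_{v<T} K^v ψ` for `A = p₀ K + (1-p₀)`. -/
theorem sum_pow_le (K A : Module.End ℝ (X → ℝ)) (hK : Pos K) {p : ℝ} (hp0 : 0 < p) (hp1 : p ≤ 1)
    (hA : A = p • K + (1 - p) • 1) (ψ : X → ℝ) (hψ : 0 ≤ ψ) (T : ℕ) :
    ∑ u ∈ range T, (A ^ u) ψ ≤ p⁻¹ • ∑ v ∈ range T, (K ^ v) ψ := by
  have hApos : Pos A := by
    rw [hA]; exact (hK.smul hp0.le).add (Pos.one.smul (by linarith))
  induction T with
  | zero => simp
  | succ T ih =>
    have h1 := hApos.mono ih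
    rw [sum_range_succ' (fun u => (A ^ u) ψ)]
    have e1 : A (∑ u ∈ range T, (A ^ u) ψ) = ∑ u ∈ range T, (A ^ (u + 1)) ψ := by
      rw [map_sum]; exact sum_congr rfl fun u _ => by rw [pow_succ']; rfl
    have e2 : A (p⁻¹ • ∑ v ∈ range T, (K ^ v) ψ) =
        ∑ v ∈ range T, (K ^ (v + 1)) ψ + (p⁻¹ - 1) • ∑ v ∈ range T, (K ^ v) ψ := by
      rw [map_smul, map_sum, smul_sum, smul_sum, ← sum_add_distrib]
      apply sum_congr rfl
      intro v _
      rw [hA]
      simp only [LinearMap.add_apply, LinearMap.smul_apply, Module.End.one_apply]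
      rw [pow_succ', smul_add, smul_smul, inv_mul_cancel₀ hp0.ne', one_smul, smul_smul]
      congr 1
      rw [mul_sub, mul_one, inv_mul_cancel₀ hp0.ne']
    rw [e1, e2] at h1
    have hsum : 0 ≤ ∑ v ∈ range T, (K ^ v) ψ := sum_nonneg fun v _ => hK.pow v ψ hψ
    have hKT : 0 ≤ (K ^ T) ψ := hK.pow T ψ hψ
    have hpinv : 1 ≤ p⁻¹ := (one_le_inv₀ hp0).mpr hp1
    intro S
    have h2 := h1 S
    have h3 := hsum S
    have h4 := hKT S
    have e3 : (∑ v ∈ range (T + 1), (K ^ v) ψ) S = (∑ v ∈ range T, (K ^ (v + 1)) ψ) S + ψ S := by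
      rw [sum_range_succ']; simp
    have e4 : (∑ v ∈ range (T + 1), (K ^ v) ψ) S = (∑ v ∈ range T, (K ^ v) ψ) S + ((K ^ T) ψ) S := by
      rw [sum_range_succ]; simp
    simp only [Pi.add_apply, Pi.smul_apply, smul_eq_mul, Pi.zero_apply, pow_zero,
      Module.End.one_apply] at *
    nlinarith

/-- hockey-stick bound. -/
theorem hockey (A B K : Module.End ℝ (X → ℝ)) (hB : Pos B) (hK : Pos K) {p : ℝ} (hp : 0 ≤ p)
    (hA : A = B + p • 1) (hBK : Commute B K) (g : X → ℝ)
    (hg : ∀ i : ℕ, 0 ≤ (K ^ i) (g - K g)) (t : ℕ) :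
    (A ^ t) g - ((B + p • K) ^ t) g ≤
      ∑ i ∈ range t, ((t.choose (i + 1) : ℝ) * p ^ (i + 1)) • (A ^ (t - 1 - i)) ((K ^ i) (g - K g)) := by
  have hApos : Pos A := by rw [hA]; exact hB.add (Pos.one.smul hp)
  set Γ : Module.End ℝ (X → ℝ) := B + p • K with hΓ
  have hΓpos : Pos Γ := hB.add (hK.smul hp)
  have hAK : Commute A K := by
    rw [hA]; exact hBK.add_left ((Commute.one_left K).smul_left p)
  have hAΓ : Commute A Γ := by
    rw [hΓ, hA]
    apply Commute.add_left
    · exact (Commute.refl B).add_right (hBK.smul_right p)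
    · exact (Commute.one_left _).smul_left p
  have hΓK : Commute Γ K := by
    rw [hΓ]; exact hBK.add_left ((Commute.refl K).smul_left p)
  -- `B ψ ≤ A ψ`
  have hBA : ∀ φ : X → ℝ, 0 ≤ φ → B φ ≤ A φ := by
    intro φ hφ
    rw [hA]
    intro S
    have := hφ S
    simp only [LinearMap.add_apply, LinearMap.smul_apply, Module.End.one_apply, Pi.add_apply,
      Pi.smul_apply, smul_eq_mul, Pi.zero_apply] at *
    nlinarith
  -- bound of `Γ^t` on positive functions
  have hΓt : ∀ (t : ℕ) (φ : X → ℝ), (∀ i, 0 ≤ (K ^ i) φ) →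
      (Γ ^ t) φ ≤ ∑ i ∈ range (t + 1), ((t.choose i : ℝ) * p ^ i) • (A ^ (t - i)) ((K ^ i) φ) := by
    intro t
    induction t with
    | zero => intro φ _; simp
    | succ t ih =>
      intro φ hφ
      have h1 := ih φ hφ
      have h2 := ih (K φ) (fun i => by
        have := hφ (i + 1)
        rw [pow_succ] at this
        exact this)
      have e0 : (Γ ^ (t + 1)) φ = B ((Γ ^ t) φ) + p • (Γ ^ t) (K φ) := by
        rw [pow_succ']
        have : (Γ ^ t) (K φ) = K ((Γ ^ t) φ) := by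
          have := (hΓK.pow_left t).eq
          have h3 := congrArg (fun L : Module.End ℝ (X → ℝ) => L φ) this
          exact h3
        rw [this]
        rfl
      have hpos : 0 ≤ (Γ ^ t) φ := by
        have := hφ 0
        simp only [pow_zero, Module.End.one_apply] at this
        exact hΓpos.pow t φ this
      have h3 : B ((Γ ^ t) φ) ≤ A ((Γ ^ t) φ) := hBA _ hpos
      have h4 := hApos.mono h1
      have e1 : A (∑ i ∈ range (t + 1), ((t.choose i : ℝ) * p ^ i) • (A ^ (t - i)) ((K ^ i) φ)) =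
          ∑ i ∈ range (t + 1), ((t.choose i : ℝ) * p ^ i) • (A ^ (t + 1 - i)) ((K ^ i) φ) := by
        rw [map_sum]
        apply sum_congr rfl
        intro i hi
        rw [map_smul]
        have : t + 1 - i = (t - i) + 1 := by
          have := mem_range.mp hi; omega
        rw [this, pow_succ']
        rfl
      have e2 : p • ∑ i ∈ range (t + 1), ((t.choose i : ℝ) * p ^ i) • (A ^ (t - i)) ((K ^ i) (K φ)) =
          ∑ i ∈ range (t + 1), ((t.choose i : ℝ) * p ^ (i + 1)) •
            (A ^ (t + 1 - (i + 1))) ((K ^ (i + 1)) φ) := by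
        rw [smul_sum]
        apply sum_congr rfl
        intro i _
        rw [smul_smul, pow_succ K i]
        have : t + 1 - (i + 1) = t - i := by omega
        rw [this]
        congr 1
        ring
      have h5 : (Γ ^ (t + 1)) φ ≤
          ∑ i ∈ range (t + 1), ((t.choose i : ℝ) * p ^ i) • (A ^ (t + 1 - i)) ((K ^ i) φ) +
          ∑ i ∈ range (t + 1), ((t.choose i : ℝ) * p ^ (i + 1)) •
            (A ^ (t + 1 - (i + 1))) ((K ^ (i + 1)) φ) := by
        rw [e0, ← e1, ← e2]
        exact add_le_add (h3.trans h4) (smul_le_smul_of_nonneg_left h2 hp)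
      refine h5.trans (le_of_eq ?_)
      -- Pascal
      rw [sum_range_succ' (fun i => (((t + 1).choose i : ℝ) * p ^ i) • (A ^ (t + 1 - i)) ((K ^ i) φ))]
      have e3 : ∑ i ∈ range (t + 1), ((t.choose i : ℝ) * p ^ i) • (A ^ (t + 1 - i)) ((K ^ i) φ) =
          ∑ i ∈ range (t + 1), ((t.choose (i + 1) : ℝ) * p ^ (i + 1)) •
            (A ^ (t + 1 - (i + 1))) ((K ^ (i + 1)) φ) + (A ^ (t + 1)) φ := by
        rw [sum_range_succ' (fun i => ((t.choose i : ℝ) * p ^ i) • (A ^ (t + 1 - i)) ((K ^ i) φ))]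
        rw [sum_range_succ (fun i => ((t.choose (i + 1) : ℝ) * p ^ (i + 1)) •
            (A ^ (t + 1 - (i + 1))) ((K ^ (i + 1)) φ))]
        simp
      rw [e3]
      simp only [Nat.choose_zero_right, Nat.cast_one, pow_zero, mul_one, one_smul,
        Module.End.one_apply, Nat.sub_zero]
      rw [add_right_comm, ← sum_add_distrib]
      congr 1
      apply sum_congr rfl
      intro i _
      rw [← add_smul, Nat.choose_succ_succ]
      congr 1
      push_cast
      ring
  induction t with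
  | zero => simp
  | succ t ih =>
    have e0 : (A ^ (t + 1)) g - (Γ ^ (t + 1)) g = A ((A ^ t) g - (Γ ^ t) g) +
        p • (Γ ^ t) (g - K g) := by
      have h1 : (Γ ^ (t + 1)) g = Γ ((Γ ^ t) g) := by rw [pow_succ']; rfl
      have h2 : (A ^ (t + 1)) g = A ((A ^ t) g) := by rw [pow_succ']; rfl
      have h3 : (Γ ^ t) (K g) = K ((Γ ^ t) g) := by
        have := (hΓK.pow_left t).eq
        exact congrArg (fun L : Module.End ℝ (X → ℝ) => L g) this
      rw [h1, h2, map_sub, map_sub, h3, hΓ, hA]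
      simp only [LinearMap.add_apply, LinearMap.smul_apply, Module.End.one_apply]
      rw [smul_sub]
      abel
    have h1 := hApos.mono ih
    have h2 := hΓt t (g - K g) hg
    rw [e0]
    have e1 : A (∑ i ∈ range t, ((t.choose (i + 1) : ℝ) * p ^ (i + 1)) •
        (A ^ (t - 1 - i)) ((K ^ i) (g - K g))) =
        ∑ i ∈ range t, ((t.choose (i + 1) : ℝ) * p ^ (i + 1)) •
          (A ^ (t - i)) ((K ^ i) (g - K g)) := by
      rw [map_sum]
      apply sum_congr rfl
      intro i hi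
      rw [map_smul]
      have : t - i = (t - 1 - i) + 1 := by
        have := mem_range.mp hi; omega
      rw [this, pow_succ' A]
      rfl
    have e2 : p • ∑ i ∈ range (t + 1), ((t.choose i : ℝ) * p ^ i) •
        (A ^ (t - i)) ((K ^ i) (g - K g)) =
        ∑ i ∈ range (t + 1), ((t.choose i : ℝ) * p ^ (i + 1)) •
          (A ^ (t - i)) ((K ^ i) (g - K g)) := by
      rw [smul_sum]
      apply sum_congr rfl
      intro i _
      rw [smul_smul]
      congr 1
      ring
    have h3 : A ((A ^ t) g - (Γ ^ t) g) + p • (Γ ^ t) (g - K g) ≤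
        ∑ i ∈ range t, ((t.choose (i + 1) : ℝ) * p ^ (i + 1)) •
          (A ^ (t - i)) ((K ^ i) (g - K g)) +
        ∑ i ∈ range (t + 1), ((t.choose i : ℝ) * p ^ (i + 1)) •
          (A ^ (t - i)) ((K ^ i) (g - K g)) := by
      rw [← e1, ← e2]
      exact add_le_add h1 (smul_le_smul_of_nonneg_left h2 hp)
    refine h3.trans (le_of_eq ?_)
    have e3 : ∑ i ∈ range t, ((t.choose (i + 1) : ℝ) * p ^ (i + 1)) •
          (A ^ (t - i)) ((K ^ i) (g - K g)) =
        ∑ i ∈ range (t + 1), ((t.choose (i + 1) : ℝ) * p ^ (i + 1)) •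
          (A ^ (t - i)) ((K ^ i) (g - K g)) := by
      rw [sum_range_succ]; simp
    rw [e3, ← sum_add_distrib]
    apply sum_congr rfl
    intro i _
    have : t + 1 - 1 - i = t - i := by omega
    rw [this, ← add_smul, Nat.choose_succ_succ]
    congr 1
    push_cast
    ring

end Vale.Agent.H28.P170
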