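import Vale.Agent.H28.P170.Ops

open Finset

namespace Vale.Agent.H28.P170

variable {X Cl : Type*} [Fintype Cl] [Nonempty Cl]

/-- averaging operator of a finite family of maps -/
noncomputable def avg (act : Cl → X → X) : Module.End ℝ (X → ℝ) where
  toFun φ S := (∑ c, φ (act c S)) / Fintype.card Cl
  map_add' φ ψ := by
    funext S; simp only [Pi.add_apply]; rw [sum_add_distrib, add_div]
  map_smul' a φ := by
    funext S; simp only [Pi.smul_apply, smul_eq_mul, RingHom.id_apply]
    rw [← mul_sum, mul_div_assoc]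

theorem avg_apply (act : Cl → X → X) (φ : X → ℝ) (S : X) :
    avg act φ S = (∑ c, φ (act c S)) / Fintype.card Cl := rfl

theorem card_pos' : (0 : ℝ) < Fintype.card Cl := by exact_mod_cast Fintype.card_pos

theorem avg_pos (act : Cl → X → X) : Pos (avg act) := by
  intro φ h S
  rw [avg_apply]
  exact div_nonneg (sum_nonneg fun c _ => h _) card_pos'.le

theorem avg_const (act : Cl → X → X) (a : ℝ) : avg act (fun _ => a) = fun _ => a := by
  funext S
  rw [avg_apply, sum_const, card_univ, nsmul_eq_mul, mul_div_cancel_left₀ _ card_pos'.ne']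

theorem avg_pow_const (act : Cl → X → X) (a : ℝ) (t : ℕ) :
    (avg act ^ t) (fun _ => a) = fun _ => a := by
  induction t with
  | zero => rfl
  | succ t ih => rw [pow_succ]; show (avg act ^ t) (avg act (fun _ => a)) = _; rw [avg_const, ih]

/-- precomposition commutes with the averaging operator -/
theorem avg_comp (act : Cl → X → X) (a : X → X) (hcomm : ∀ c S, act c (a S) = a (act c S))
    (φ : X → ℝ) (S : X) (t : ℕ) :
    ((avg act ^ t) φ) (a S) = ((avg act ^ t) (fun S => φ (a S))) S := by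
  induction t generalizing φ S with
  | zero => rfl
  | succ t ih =>
    rw [pow_succ]
    show ((avg act ^ t) (avg act φ)) (a S) = ((avg act ^ t) (avg act (fun S => φ (a S)))) S
    rw [ih]
    have e : (fun S => (avg act φ) (a S)) = avg act (fun S => φ (a S)) := by
      funext S'
      rw [avg_apply, avg_apply]
      congr 1
      exact sum_congr rfl fun c _ => by rw [hcomm]
    rw [e]

theorem sum_pow_telescope (K : Module.End ℝ (X → ℝ)) (σ : X → ℝ) (u : ℕ) :
    ∑ r ∈ range u, (K ^ r) (σ - K σ) = σ - (K ^ u) σ := by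
  induction u with
  | zero => simp
  | succ u ih =>
    rw [sum_range_succ, ih, map_sub]
    have : (K ^ u) (K σ) = (K ^ (u + 1)) σ := by rw [pow_succ]; rfl
    rw [this]; abel

section
variable (act : Cl → X → X) (hcomm : ∀ c c' S, act c (act c' S) = act c' (act c S))
  (σ x : X → ℝ) (hσ : ∀ S, σ S = 0 ∨ σ S = 1) (hact : ∀ c S, σ (act c S) ≤ σ S)
  (hx0 : ∀ S, 0 ≤ x S) (k : ℕ) (hk : 1 ≤ k)
  (hkill : ∀ S, σ S - avg act σ S = x S ^ k)

include hσ in
theorem sig_nonneg (S : X) : 0 ≤ σ S := by rcases hσ S with h | h <;> rw [h] <;> norm_num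

include hσ in
theorem sig_le_one (S : X) : σ S ≤ 1 := by rcases hσ S with h | h <;> rw [h] <;> norm_num

include hσ in
theorem pow_sig_nonneg (t : ℕ) (S : X) : 0 ≤ ((avg act ^ t) σ) S :=
  (avg_pos act).pow t σ (fun S => sig_nonneg σ hσ S) S

include hσ in
theorem pow_sig_le_one (t : ℕ) (S : X) : ((avg act ^ t) σ) S ≤ 1 := by
  have h := ((avg_pos act).pow t).mono (φ := σ) (ψ := fun _ => 1) (fun S => sig_le_one σ hσ S) S
  rw [avg_pow_const] at h
  exact h

include hact in
theorem avg_sig_le : avg act σ ≤ σ := by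
  intro S
  rw [avg_apply, div_le_iff₀ card_pos']
  calc ∑ c, σ (act c S) ≤ ∑ _c : Cl, σ S := sum_le_sum fun c _ => hact c S
    _ = σ S * Fintype.card Cl := by rw [sum_const, card_univ, nsmul_eq_mul, mul_comm]

include hact in
theorem pow_sig_anti (S : X) : Antitone (fun t => ((avg act ^ t) σ) S) := by
  apply antitone_nat_of_succ_le
  intro t
  have h := ((avg_pos act).pow t).mono (avg_sig_le act σ hact) S
  have e : (avg act ^ t) (avg act σ) = (avg act ^ (t + 1)) σ := by rw [pow_succ]; rfl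
  rw [e] at h
  exact h

include hσ hact in
theorem pow_sig_zero (S : X) (h : σ S = 0) (t : ℕ) : ((avg act ^ t) σ) S = 0 := by
  apply le_antisymm _ (pow_sig_nonneg act σ hσ t S)
  have := pow_sig_anti act σ hact S (Nat.zero_le t)
  simpa [h] using this

/-- truncated mean -/
noncomputable def hh (u : ℕ) : X → ℝ := ∑ r ∈ range u, (avg act ^ r) σ

/-- truncated second moment -/
noncomputable def ww (u : ℕ) : X → ℝ := ∑ t ∈ range u, ((2 * t + 1 : ℕ) : ℝ) • (avg act ^ t) σ

/-- truncated variance -/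
noncomputable def vv (u : ℕ) : X → ℝ := fun S => ww act σ u S - (hh act σ u S) ^ 2

theorem hh_succ (u : ℕ) : hh act σ (u + 1) = σ + avg act (hh act σ u) := by
  unfold hh
  rw [sum_range_succ', map_sum]
  simp only [pow_zero, Module.End.one_apply]
  rw [add_comm]
  congr 1
  exact sum_congr rfl fun r _ => by rw [pow_succ']; rfl

theorem ww_succ (u : ℕ) :
    ww act σ (u + 1) = σ + avg act (ww act σ u) + (2 : ℝ) • avg act (hh act σ u) := by
  unfold ww hh
  rw [sum_range_succ', map_sum, map_sum, smul_sum]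
  simp only [pow_zero, Module.End.one_apply, Nat.mul_zero, Nat.zero_add, Nat.cast_one, one_smul]
  rw [add_comm _ σ, add_assoc, ← sum_add_distrib]
  congr 1
  apply sum_congr rfl
  intro r _
  rw [map_smul, pow_succ']
  show ((2 * (r + 1) + 1 : ℕ) : ℝ) • avg act ((avg act ^ r) σ) = _
  rw [← add_smul]
  congr 1
  push_cast; ring

include hσ hact in
theorem vv_zero_of (S : X) (h : σ S = 0) (u : ℕ) : vv act σ u S = 0 := by
  unfold vv ww hh
  have e1 : (∑ t ∈ range u, ((2 * t + 1 : ℕ) : ℝ) • (avg act ^ t) σ) S = 0 := by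
    rw [Finset.sum_apply]
    apply sum_eq_zero
    intro t _
    rw [Pi.smul_apply, pow_sig_zero act σ hσ hact S h t, smul_zero]
  have e2 : (∑ r ∈ range u, (avg act ^ r) σ) S = 0 := by
    rw [Finset.sum_apply]
    exact sum_eq_zero fun t _ => pow_sig_zero act σ hσ hact S h t
  rw [e1, e2]; norm_num

/-- variance recursion -/
theorem vv_succ (S : X) (h : σ S = 1) (u : ℕ) :
    vv act σ (u + 1) S ≤ avg act (vv act σ u) S +
      (∑ c, (hh act σ u S - hh act σ u (act c S)) ^ 2) / Fintype.card Cl := by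
  have hc := card_pos' (Cl := Cl)
  have e0 : vv act σ (u + 1) S = avg act (ww act σ u) S - (avg act (hh act σ u) S) ^ 2 := by
    unfold vv
    rw [ww_succ, hh_succ]
    simp only [Pi.add_apply, Pi.smul_apply, smul_eq_mul, h]
    ring
  rw [e0, avg_apply, avg_apply, avg_apply]
  unfold vv
  rw [sum_sub_distrib]
  set N : ℝ := (Fintype.card Cl : ℝ) with hN
  set a : ℝ := hh act σ u S
  set f : Cl → ℝ := fun c => hh act σ u (act c S) with hf
  have hsum : ∑ c, (a - f c) ^ 2 = N * a ^ 2 - 2 * a * ∑ c, f c + ∑ c, f c ^ 2 := by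
    have : ∀ c, (a - f c) ^ 2 = a ^ 2 - 2 * a * f c + f c ^ 2 := fun c => by ring
    simp_rw [this]
    rw [sum_add_distrib, sum_sub_distrib, ← mul_sum, sum_const, card_univ, nsmul_eq_mul]
  have key : (∑ c, (a - f c) ^ 2) / N = a ^ 2 - 2 * a * ((∑ c, f c) / N) + (∑ c, f c ^ 2) / N := by
    rw [hsum]; field_simp
  show (∑ c, ww act σ u (act c S)) / N - ((∑ c, f c) / N) ^ 2 ≤
    ((∑ c, ww act σ u (act c S)) - ∑ c, f c ^ 2) / N + (∑ c, (a - f c) ^ 2) / N
  rw [key, sub_div]
  nlinarith [sq_nonneg (a - (∑ c, f c) / N)]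

include hcomm hσ hact hx0 hkill in
/-- the one-clause difference bound -/
theorem diff_bound (η : ℝ) (hη : 0 < η) (hk : 1 ≤ k) (u : ℕ) (S : X) :
    (∑ c, (hh act σ u S - hh act σ u (act c S)) ^ 2) / Fintype.card Cl ≤
      2 * (η⁻¹) ^ k + 2 * (u : ℝ) * η ^ (k - 1) * ∑ r ∈ range u, ((avg act ^ r) x) S := by
  classical
  have hc := card_pos' (Cl := Cl)
  set K := avg act with hK
  have hKpos : Pos K := avg_pos act
  let β : X → ℝ := fun S => if η ≤ x S then 1 else 0
  let kb : Cl → X → ℝ := fun c S => (σ S - σ (act c S)) * β S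
  let ks : Cl → X → ℝ := fun c S => (σ S - σ (act c S)) * (1 - β S)
  have hβ0 : ∀ S, 0 ≤ β S := fun S => by simp only [β]; split_ifs <;> norm_num
  have hβ1 : ∀ S, β S ≤ 1 := fun S => by simp only [β]; split_ifs <;> norm_num
  have hκ0 : ∀ c S, 0 ≤ σ S - σ (act c S) := fun c S => sub_nonneg.mpr (hact c S)
  have hκ1 : ∀ c S, σ S - σ (act c S) ≤ 1 := fun c S => by
    linarith [sig_le_one σ hσ S, sig_nonneg σ hσ (act c S)]
  have hkb0 : ∀ c, 0 ≤ kb c := fun c S => mul_nonneg (hκ0 c S) (hβ0 S)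
  have hks0 : ∀ c, 0 ≤ ks c := fun c S => mul_nonneg (hκ0 c S) (by linarith [hβ1 S])
  -- the differences
  let Db : Cl → ℝ := fun c => ∑ r ∈ range u, ((K ^ r) (kb c)) S
  let Ds : Cl → ℝ := fun c => ∑ r ∈ range u, ((K ^ r) (ks c)) S
  have hD : ∀ c, hh act σ u S - hh act σ u (act c S) = Db c + Ds c := by
    intro c
    simp only [hh, Db, Ds]
    rw [Finset.sum_apply, Finset.sum_apply, ← sum_sub_distrib, ← sum_add_distrib]
    apply sum_congr rfl
    intro r _
    rw [avg_comp act (act c) (fun c' S => hcomm c' c S)]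
    have e1 : σ - (fun S => σ (act c S)) = kb c + ks c := by
      funext S; simp only [kb, ks, Pi.add_apply, Pi.sub_apply]; ring
    have e2 := congrFun (congrArg (fun φ => (K ^ r) φ) e1) S
    simp only [map_sub, map_add, Pi.sub_apply, Pi.add_apply] at e2
    exact e2
  have hDb0 : ∀ c, 0 ≤ Db c := fun c => sum_nonneg fun r _ => hKpos.pow r _ (hkb0 c) S
  have hDs0 : ∀ c, 0 ≤ Ds c := fun c => sum_nonneg fun r _ => hKpos.pow r _ (hks0 c) S
  -- telescoping: ∑ K^r x^k ≤ 1
  have hxk : (fun S => x S ^ k) = σ - K σ := by funext S; exact (hkill S).symm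
  have htel : ∑ r ∈ range u, ((K ^ r) (fun S => x S ^ k)) S ≤ 1 := by
    have h1 := congrFun (sum_pow_telescope K σ u) S
    rw [Finset.sum_apply] at h1
    rw [hxk, h1]
    simp only [Pi.sub_apply]
    linarith [sig_le_one σ hσ S, pow_sig_nonneg act σ hσ u S]
  have hηk : 0 < η ^ k := pow_pos hη k
  -- Db bounded
  have hDb1 : ∀ c, Db c ≤ (η⁻¹) ^ k := by
    intro c
    have h1 : kb c ≤ ((η⁻¹) ^ k) • (fun S => x S ^ k) := by
      intro S
      simp only [kb, β, Pi.smul_apply, smul_eq_mul]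
      by_cases hS : η ≤ x S
      · rw [if_pos hS, mul_one]
        have : 1 ≤ (η⁻¹) ^ k * x S ^ k := by
          rw [← mul_pow]
          apply one_le_pow₀
          rw [inv_mul_eq_div, one_le_div hη]; exact hS
        exact (hκ1 c S).trans this
      · rw [if_neg hS, mul_zero]
        exact mul_nonneg (by positivity) (pow_nonneg (hx0 S) k)
    calc Db c ≤ ∑ r ∈ range u, ((K ^ r) (((η⁻¹) ^ k) • (fun S => x S ^ k))) S :=
          sum_le_sum fun r _ => (hKpos.pow r).mono h1 S
      _ = (η⁻¹) ^ k * ∑ r ∈ range u, ((K ^ r) (fun S => x S ^ k)) S := by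
          rw [mul_sum]; exact sum_congr rfl fun r _ => by rw [map_smul]; rfl
      _ ≤ (η⁻¹) ^ k * 1 := by gcongr
      _ = _ := mul_one _
  -- averages over `c`
  have havg : ∀ (κ : Cl → X → ℝ) , (∑ c, ∑ r ∈ range u, ((K ^ r) (κ c)) S) =
      ∑ r ∈ range u, ((K ^ r) (∑ c, κ c)) S := by
    intro κ
    rw [sum_comm]
    apply sum_congr rfl
    intro r _
    rw [map_sum, Finset.sum_apply]
  have hsumκ : ∀ S, ∑ c, (σ S - σ (act c S)) = Fintype.card Cl * x S ^ k := by
    intro S
    rw [sum_sub_distrib, sum_const, card_univ, nsmul_eq_mul, ← hkill S, avg_apply]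
    field_simp
  have hDbavg : ∑ c, Db c ≤ Fintype.card Cl := by
    have h1 : (∑ c, kb c) ≤ (Fintype.card Cl : ℝ) • (fun S => x S ^ k) := by
      intro S
      rw [Finset.sum_apply]
      simp only [kb, Pi.smul_apply, smul_eq_mul]
      rw [← sum_mul, hsumκ S]
      have : 0 ≤ Fintype.card Cl * x S ^ k := mul_nonneg hc.le (pow_nonneg (hx0 S) k)
      nlinarith [hβ1 S]
    calc ∑ c, Db c = ∑ r ∈ range u, ((K ^ r) (∑ c, kb c)) S := havg kb
      _ ≤ ∑ r ∈ range u, ((K ^ r) ((Fintype.card Cl : ℝ) • (fun S => x S ^ k))) S :=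
          sum_le_sum fun r _ => (hKpos.pow r).mono h1 S
      _ = Fintype.card Cl * ∑ r ∈ range u, ((K ^ r) (fun S => x S ^ k)) S := by
          rw [mul_sum]; exact sum_congr rfl fun r _ => by rw [map_smul]; rfl
      _ ≤ Fintype.card Cl * 1 := by gcongr
      _ = _ := mul_one _
  have hDs1 : ∀ c, Ds c ≤ u := by
    intro c
    have h1 : ks c ≤ fun _ => 1 := by
      intro S
      simp only [ks]
      have := hκ0 c S
      have := hκ1 c S
      nlinarith [hβ0 S, hβ1 S]
    calc Ds c ≤ ∑ r ∈ range u, ((K ^ r) (fun _ => 1)) S :=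
          sum_le_sum fun r _ => (hKpos.pow r).mono h1 S
      _ = ∑ _r ∈ range u, (1 : ℝ) := sum_congr rfl fun r _ => by rw [hK, avg_pow_const]
      _ = u := by simp
  have hDsavg : ∑ c, Ds c ≤ Fintype.card Cl * (η ^ (k - 1) * ∑ r ∈ range u, ((K ^ r) x) S) := by
    have h1 : (∑ c, ks c) ≤ ((Fintype.card Cl : ℝ) * η ^ (k - 1)) • x := by
      intro S
      rw [Finset.sum_apply]
      simp only [ks, Pi.smul_apply, smul_eq_mul]
      rw [← sum_mul, hsumκ S]
      by_cases hS : η ≤ x S
      · simp only [β, if_pos hS, sub_self, mul_zero]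
        exact mul_nonneg (mul_nonneg hc.le (by positivity)) (hx0 S)
      · simp only [β, if_neg hS, sub_zero, mul_one]
        push Not at hS
        have e : x S ^ k = x S ^ (k - 1) * x S := by
          rw [← pow_succ]; congr 1; omega
        rw [e, mul_assoc]
        apply mul_le_mul_of_nonneg_left _ hc.le
        apply mul_le_mul_of_nonneg_right _ (hx0 S)
        exact pow_le_pow_left₀ (hx0 S) hS.le _
    calc ∑ c, Ds c = ∑ r ∈ range u, ((K ^ r) (∑ c, ks c)) S := havg ks
      _ ≤ ∑ r ∈ range u, ((K ^ r) (((Fintype.card Cl : ℝ) * η ^ (k - 1)) • x)) S :=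
          sum_le_sum fun r _ => (hKpos.pow r).mono h1 S
      _ = ((Fintype.card Cl : ℝ) * η ^ (k - 1)) * ∑ r ∈ range u, ((K ^ r) x) S := by
          rw [mul_sum]; exact sum_congr rfl fun r _ => by rw [map_smul]; rfl
      _ = _ := by ring
  -- conclude
  rw [div_le_iff₀ hc]
  calc ∑ c, (hh act σ u S - hh act σ u (act c S)) ^ 2
      = ∑ c, (Db c + Ds c) ^ 2 := sum_congr rfl fun c _ => by rw [hD c]
    _ ≤ ∑ c, (2 * ((η⁻¹) ^ k * Db c) + 2 * ((u : ℝ) * Ds c)) := by
        apply sum_le_sum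
        intro c _
        have h1 := hDb0 c
        have h2 := hDs0 c
        have h3 : Db c ^ 2 ≤ (η⁻¹) ^ k * Db c := by
          rw [sq]; exact mul_le_mul_of_nonneg_right (hDb1 c) h1
        have h4 : Ds c ^ 2 ≤ (u : ℝ) * Ds c := by
          rw [sq]; exact mul_le_mul_of_nonneg_right (hDs1 c) h2
        nlinarith [sq_nonneg (Db c - Ds c)]
    _ = 2 * ((η⁻¹) ^ k * ∑ c, Db c) + 2 * ((u : ℝ) * ∑ c, Ds c) := by
        rw [sum_add_distrib, ← mul_sum, ← mul_sum, ← mul_sum, ← mul_sum]
    _ ≤ 2 * ((η⁻¹) ^ k * Fintype.card Cl) +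
        2 * ((u : ℝ) * (Fintype.card Cl * (η ^ (k - 1) * ∑ r ∈ range u, ((K ^ r) x) S))) := by
        gcongr
    _ = _ := by ring

include hcomm hσ hact hx0 hkill in
/-- the variance bound -/
theorem vv_le (η : ℝ) (hη : 0 < η) (hk : 1 ≤ k) (T : ℕ) (S : X) :
    vv act σ T S ≤ 2 * (T : ℝ) * (η⁻¹) ^ k +
      2 * (T : ℝ) ^ 2 * η ^ (k - 1) * ∑ r ∈ range T, ((avg act ^ r) x) S := by
  have hKpos : Pos (avg act) := avg_pos act
  have hxs : ∀ (T : ℕ) S, 0 ≤ ∑ r ∈ range T, ((avg act ^ r) x) S := fun T S =>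
    sum_nonneg fun r _ => hKpos.pow r x hx0 S
  induction T generalizing S with
  | zero => simp [vv, ww, hh]
  | succ T ih =>
    have hmain : vv act σ (T + 1) S ≤ avg act (vv act σ T) S +
        (2 * (η⁻¹) ^ k + 2 * (T : ℝ) * η ^ (k - 1) * ∑ r ∈ range T, ((avg act ^ r) x) S) := by
      rcases hσ S with h | h
      · have e1 := vv_zero_of act σ hσ hact S h (T + 1)
        have e2 : avg act (vv act σ T) S = 0 := by
          rw [avg_apply]
          have : ∀ c, vv act σ T (act c S) = 0 := fun c => by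
            apply vv_zero_of act σ hσ hact
            apply le_antisymm _ (sig_nonneg σ hσ _)
            rw [← h]; exact hact c S
          simp [this]
        rw [e1, e2]
        have := hxs T S
        positivity
      · exact (vv_succ act σ S h T).trans (add_le_add_right
          (diff_bound act hcomm σ x hσ hact hx0 k hkill η hη hk T S) _)
    have hKv : avg act (vv act σ T) S ≤ 2 * (T : ℝ) * (η⁻¹) ^ k +
        2 * (T : ℝ) ^ 2 * η ^ (k - 1) * ∑ r ∈ range T, ((avg act ^ (r + 1)) x) S := by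
      have h1 : vv act σ T ≤ (fun _ => 2 * (T : ℝ) * (η⁻¹) ^ k) +
          (2 * (T : ℝ) ^ 2 * η ^ (k - 1)) • ∑ r ∈ range T, (avg act ^ r) x := by
        intro S'
        simp only [Pi.add_apply, Pi.smul_apply, smul_eq_mul, Finset.sum_apply]
        exact ih S'
      have h2 := hKpos.mono h1 S
      rw [map_add, map_smul, avg_const, map_sum] at h2
      simp only [Pi.add_apply, Pi.smul_apply, smul_eq_mul, Finset.sum_apply] at h2
      refine h2.trans (le_of_eq ?_)
      congr 2
      exact sum_congr rfl fun r _ => by rw [pow_succ']; rfl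
    have hs1 : ∑ r ∈ range T, ((avg act ^ (r + 1)) x) S ≤
        ∑ r ∈ range (T + 1), ((avg act ^ r) x) S := by
      rw [sum_range_succ']
      have : 0 ≤ ((avg act ^ 0) x) S := hx0 S
      linarith
    have hs2 : ∑ r ∈ range T, ((avg act ^ r) x) S ≤ ∑ r ∈ range (T + 1), ((avg act ^ r) x) S := by
      rw [sum_range_succ]
      have : 0 ≤ ((avg act ^ T) x) S := hKpos.pow T x hx0 S
      linarith
    set Y := ∑ r ∈ range (T + 1), ((avg act ^ r) x) S with hY
    have hY0 : 0 ≤ Y := hxs (T + 1) S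
    have hη1 : 0 ≤ η ^ (k - 1) := by positivity
    calc vv act σ (T + 1) S ≤ _ := hmain
      _ ≤ (2 * (T : ℝ) * (η⁻¹) ^ k + 2 * (T : ℝ) ^ 2 * η ^ (k - 1) * Y) +
          (2 * (η⁻¹) ^ k + 2 * (T : ℝ) * η ^ (k - 1) * Y) := by
          apply add_le_add
          · refine hKv.trans ?_
            gcongr
          · gcongr
      _ ≤ _ := by
          push_cast
          have h3 : 0 ≤ η ^ (k - 1) * Y := mul_nonneg hη1 hY0
          have h4 : (0 : ℝ) ≤ T := by positivity
          nlinarith [mul_nonneg h4 h3]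

end

/-- double-sum form of the variance and the window inequality -/
theorem window_abs (P : ℕ → ℝ) (hP : Antitone P) (h0 : ∀ t, 0 ≤ P t) (h1 : ∀ t, P t ≤ 1)
    (a b T : ℕ) (hab : a ≤ b) (hbT : b ≤ T) :
    ((b : ℝ) - a) ^ 2 * (P b * (1 - P a)) ≤
      ∑ t ∈ range T, ((2 * t + 1 : ℕ) : ℝ) * P t - (∑ t ∈ range T, P t) ^ 2 := by
  have e1 : ∀ T : ℕ, ∑ t ∈ range T, ((2 * t + 1 : ℕ) : ℝ) * P t =
      ∑ s ∈ range T, ∑ t ∈ range T, P (max s t) := by
    intro T
    induction T with
    | zero => simp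
    | succ T ih =>
      rw [sum_range_succ, ih, sum_range_succ (fun s => ∑ t ∈ range (T + 1), P (max s t))]
      have h2 : ∑ s ∈ range T, ∑ t ∈ range (T + 1), P (max s t) =
          ∑ s ∈ range T, ∑ t ∈ range T, P (max s t) + T * P T := by
        rw [show (T : ℝ) * P T = ∑ _s ∈ range T, P T by simp, ← sum_add_distrib]
        apply sum_congr rfl
        intro s hs
        rw [sum_range_succ, max_eq_right (mem_range.mp hs).le]
      have h3 : ∑ t ∈ range (T + 1), P (max T t) = (T + 1) * P T := by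
        have : ∀ t ∈ range (T + 1), P (max T t) = P T := fun t ht => by
          rw [max_eq_left (Nat.lt_succ_iff.mp (mem_range.mp ht))]
        rw [sum_congr rfl this]; simp
      rw [h2, h3]
      push_cast; ring
  have e2 : (∑ t ∈ range T, P t) ^ 2 = ∑ s ∈ range T, ∑ t ∈ range T, P s * P t := by
    rw [sq, sum_mul_sum]
  rw [e1, e2, ← sum_sub_distrib]
  have e3 : ∀ s ∈ range T, (∑ t ∈ range T, P (max s t) - ∑ t ∈ range T, P s * P t) =
      ∑ t ∈ range T, (P (max s t) - P s * P t) := fun s _ => by rw [sum_sub_distrib]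
  rw [sum_congr rfl e3]
  have hterm : ∀ s t, 0 ≤ P (max s t) - P s * P t := by
    intro s t
    rcases le_total s t with h | h
    · rw [max_eq_right h]; nlinarith [h0 t, h1 s]
    · rw [max_eq_left h]; nlinarith [h0 s, h1 t]
  have hsub : Finset.Ico a b ⊆ range T := by
    intro s hs
    rw [mem_Ico] at hs
    rw [mem_range]; omega
  calc ((b : ℝ) - a) ^ 2 * (P b * (1 - P a))
      = ∑ _s ∈ Finset.Ico a b, ∑ _t ∈ Finset.Ico a b, P b * (1 - P a) := by
        rw [sum_const, sum_const, Nat.card_Ico, nsmul_eq_mul, nsmul_eq_mul, Nat.cast_sub hab]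
        ring
    _ ≤ ∑ s ∈ Finset.Ico a b, ∑ t ∈ Finset.Ico a b, (P (max s t) - P s * P t) := by
        apply sum_le_sum
        intro s hs
        apply sum_le_sum
        intro t ht
        rw [mem_Ico] at hs ht
        have ha1 : P s ≤ P a := hP hs.1
        have ha2 : P t ≤ P a := hP ht.1
        have hb1 : P b ≤ P s := hP hs.2.le
        have hb2 : P b ≤ P t := hP ht.2.le
        rcases le_total s t with h | h
        · rw [max_eq_right h]
          have e : P t - P s * P t = P t * (1 - P s) := by ring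
          rw [e]
          apply mul_le_mul hb2 (by linarith) (by linarith [h1 a]) (h0 t)
        · rw [max_eq_left h]
          have e : P s - P s * P t = P s * (1 - P t) := by ring
          rw [e]
          apply mul_le_mul hb1 (by linarith) (by linarith [h1 a]) (h0 s)
    _ ≤ ∑ s ∈ Finset.Ico a b, ∑ t ∈ range T, (P (max s t) - P s * P t) := by
        apply sum_le_sum
        intro s _
        exact sum_le_sum_of_subset_of_nonneg hsub (fun t _ _ => hterm s t)
    _ ≤ _ := sum_le_sum_of_subset_of_nonneg hsub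
        (fun s _ _ => sum_nonneg fun t _ => hterm s t)

/-- the window inequality for an averaged family of commuting maps -/
theorem window (act : Cl → X → X) (hcomm : ∀ c c' S, act c (act c' S) = act c' (act c S))
    (σ x : X → ℝ) (hσ : ∀ S, σ S = 0 ∨ σ S = 1) (hact : ∀ c S, σ (act c S) ≤ σ S)
    (hx0 : ∀ S, 0 ≤ x S) (k : ℕ) (hk : 1 ≤ k)
    (hkill : ∀ S, σ S - avg act σ S = x S ^ k) (η : ℝ) (hη : 0 < η) (S : X)
    (a b T : ℕ) (hab : a ≤ b) (hbT : b ≤ T) :
    ((b : ℝ) - a) ^ 2 * (((avg act ^ b) σ) S * (1 - ((avg act ^ a) σ) S)) ≤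
      2 * (T : ℝ) * (η⁻¹) ^ k +
        2 * (T : ℝ) ^ 2 * η ^ (k - 1) * ∑ r ∈ range T, ((avg act ^ r) x) S := by
  refine le_trans (window_abs (fun t => ((avg act ^ t) σ) S) (pow_sig_anti act σ hact S)
    (fun t => pow_sig_nonneg act σ hσ t S) (fun t => pow_sig_le_one act σ hσ t S)
    a b T hab hbT) ?_
  refine le_trans (le_of_eq ?_) (vv_le act hcomm σ x hσ hact hx0 k hkill η hη hk T S)
  unfold vv ww hh
  rw [Finset.sum_apply, Finset.sum_apply]
  rfl

end Vale.Agent.H28.P170
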